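/-
Spaces with the almost 3-ball intersection property (among them all L_1-preduals): every extreme
functional of the dual ball has slope one on the unit sphere.
-/
import Mathlib

set_option linter.unusedSectionVars false

namespace Vale.Agent.Lib.P084.Ball3

variable {X : Type*} [NormedAddCommGroup X] [NormedSpace ℝ X]

/-- Almost 3-ball intersection property: three closed balls that meet pairwise have, for each
`ε > 0`, a common point after enlarging the radii by `ε`. -/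
def ThreeBall (X : Type*) [NormedAddCommGroup X] [NormedSpace ℝ X] : Prop :=
  ∀ (a b c : X) (r s t : ℝ), 0 ≤ r → 0 ≤ s → 0 ≤ t → ‖a - b‖ ≤ r + s → ‖a - c‖ ≤ r + t →
    ‖b - c‖ ≤ s + t → ∀ ε : ℝ, 0 < ε → ∃ u : X, ‖u - a‖ ≤ r + ε ∧ ‖u - b‖ ≤ s + ε ∧ ‖u - c‖ ≤ t + ε

/-- Extreme functionals in algebraic form. -/
def DualExtreme (θ : X →L[ℝ] ℝ) : Prop :=
  ‖θ‖ = 1 ∧ ∀ η₁ η₂ : X →L[ℝ] ℝ, η₁ + η₂ = θ → ‖η₁‖ + ‖η₂‖ ≤ 1 → η₂ = ‖η₂‖ • θ

theorem le_of_norm_le_one {θ : X →L[ℝ] ℝ} (h : ‖θ‖ ≤ 1) (z : X) : θ z ≤ ‖z‖ := by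
  have h1 := θ.le_opNorm z
  have h2 : ‖θ‖ * ‖z‖ ≤ 1 * ‖z‖ := mul_le_mul_of_nonneg_right h (norm_nonneg z)
  have h3 := le_abs_self (θ z)
  rw [Real.norm_eq_abs] at h1
  linarith

theorem exists_near_norming {θ : X →L[ℝ] ℝ} (h : ‖θ‖ = 1) {ζ : ℝ} (hζ : 0 < ζ) (hζ1 : ζ ≤ 1) :
    ∃ v : X, ‖v‖ = 1 ∧ 1 - ζ < θ v := by
  by_contra hcon
  push Not at hcon
  have h1 : ‖θ‖ ≤ 1 - ζ := ContinuousLinearMap.opNorm_le_of_unit_norm (by linarith) (fun x hx => by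
    rw [Real.norm_eq_abs, abs_le]
    have h2 := hcon x hx
    have h3 := hcon (-x) (by rwa [norm_neg])
    rw [map_neg] at h3
    constructor <;> linarith)
  linarith

/-- Upper envelope at an extreme functional, from the Hahn-Banach theorem in `X × X × ℝ`. -/
theorem DualExtreme.exists_vector {θ : X →L[ℝ] ℝ} (hθ : DualExtreme θ) (y : X) {δ κ : ℝ}
    (hδ : 0 < δ) (hκ : 0 < κ) :
    ∃ c : X, ‖c‖ < θ c + κ ∧ ‖c + y‖ < θ c + κ + (θ y + δ) := by
  by_contra hcon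
  push Not at hcon
  obtain ⟨hθ1, hθe⟩ := hθ
  set b : ℝ := θ y + δ with hb
  have hle : ∀ z, θ z ≤ ‖z‖ := le_of_norm_le_one hθ1.le
  -- the sublinear functional
  let N : X × X × ℝ → ℝ := fun p =>
    max (‖p.1‖ - κ * p.2.2) (‖p.2.1 + p.2.2 • y‖ - p.2.2 * (b + κ))
  have N_hom : ∀ c : ℝ, 0 < c → ∀ p, N (c • p) = c * N p := by
    intro c hc p
    have e1 : ‖(c • p).1‖ - κ * (c • p).2.2 = c * (‖p.1‖ - κ * p.2.2) := by
      simp only [Prod.smul_fst, Prod.smul_snd, norm_smul, smul_eq_mul, Real.norm_of_nonneg hc.le]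
      ring
    have e2 : ‖(c • p).2.1 + (c • p).2.2 • y‖ - (c • p).2.2 * (b + κ) =
        c * (‖p.2.1 + p.2.2 • y‖ - p.2.2 * (b + κ)) := by
      have e3 : (c • p).2.1 + (c • p).2.2 • y = c • (p.2.1 + p.2.2 • y) := by
        simp only [Prod.smul_fst, Prod.smul_snd, smul_add, smul_eq_mul, mul_smul]
      rw [e3, norm_smul, Real.norm_of_nonneg hc.le]
      simp only [Prod.smul_snd, smul_eq_mul]
      ring
    show max _ _ = c * max _ _
    rw [e1, e2]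
    exact (mul_max_of_nonneg _ _ hc.le).symm
  have N_add : ∀ p q, N (p + q) ≤ N p + N q := by
    intro p q
    have h1 : ‖(p + q).1‖ - κ * (p + q).2.2 ≤ N p + N q := by
      have h3 := norm_add_le p.1 q.1
      have h4 : ‖p.1‖ - κ * p.2.2 ≤ N p := le_max_left _ _
      have h5 : ‖q.1‖ - κ * q.2.2 ≤ N q := le_max_left _ _
      simp only [Prod.fst_add, Prod.snd_add]
      linarith
    have h2 : ‖(p + q).2.1 + (p + q).2.2 • y‖ - (p + q).2.2 * (b + κ) ≤ N p + N q := by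
      have e : (p + q).2.1 + (p + q).2.2 • y = (p.2.1 + p.2.2 • y) + (q.2.1 + q.2.2 • y) := by
        simp only [Prod.fst_add, Prod.snd_add, add_smul]
        abel
      have h3 := norm_add_le (p.2.1 + p.2.2 • y) (q.2.1 + q.2.2 • y)
      have h4 : ‖p.2.1 + p.2.2 • y‖ - p.2.2 * (b + κ) ≤ N p := le_max_right _ _
      have h5 : ‖q.2.1 + q.2.2 • y‖ - q.2.2 * (b + κ) ≤ N q := le_max_right _ _
      rw [e]
      simp only [Prod.snd_add]
      linarith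
    exact max_le h1 h2
  -- the diagonal and the functional on it
  let D : Submodule ℝ (X × X × ℝ) :=
    { carrier := {p | p.1 = p.2.1}
      add_mem' := by
        intro p q hp hq
        show p.1 + q.1 = p.2.1 + q.2.1
        rw [show p.1 = p.2.1 from hp, show q.1 = q.2.1 from hq]
      zero_mem' := rfl
      smul_mem' := by
        intro c p hp
        show c • p.1 = c • p.2.1
        rw [show p.1 = p.2.1 from hp] }
  let L : X × X × ℝ →ₗ[ℝ] ℝ := θ.toLinearMap ∘ₗ LinearMap.fst ℝ X (X × ℝ)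
  let F : (X × X × ℝ) →ₗ.[ℝ] ℝ := ⟨D, L ∘ₗ D.subtype⟩
  have hdom : ∀ p : F.domain, F p ≤ N p := by
    rintro ⟨⟨c, c', t⟩, hp⟩
    have hcc : c = c' := hp
    subst hcc
    show θ c ≤ max (‖c‖ - κ * t) (‖c + t • y‖ - t * (b + κ))
    rcases lt_trichotomy t 0 with ht | ht | ht
    · refine le_max_of_le_left ?_
      have := hle c
      nlinarith
    · subst ht
      refine le_max_of_le_left ?_
      have := hle c
      simpa using this
    · have htn : t ≠ 0 := ht.ne'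
      have hc1 : ‖t⁻¹ • c‖ = t⁻¹ * ‖c‖ := by
        rw [norm_smul, norm_inv, Real.norm_of_nonneg ht.le]
      have hc2 : θ (t⁻¹ • c) = t⁻¹ * θ c := by
        rw [map_smul, smul_eq_mul]
      by_cases h1 : ‖t⁻¹ • c‖ < θ (t⁻¹ • c) + κ
      · have h2 := hcon _ h1
        have e : t⁻¹ • c + y = t⁻¹ • (c + t • y) := by
          rw [smul_add, smul_smul, inv_mul_cancel₀ htn, one_smul]
        rw [e, norm_smul, norm_inv, Real.norm_of_nonneg ht.le, hc2] at h2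
        refine le_max_of_le_right ?_
        have h3 := mul_le_mul_of_nonneg_left h2 ht.le
        rw [← mul_assoc, mul_inv_cancel₀ htn, one_mul, mul_add, mul_add, ← mul_assoc,
          mul_inv_cancel₀ htn, one_mul] at h3
        nlinarith
      · push Not at h1
        rw [hc1, hc2] at h1
        refine le_max_of_le_left ?_
        have h3 := mul_le_mul_of_nonneg_left h1 ht.le
        rw [mul_add, ← mul_assoc, ← mul_assoc, mul_inv_cancel₀ htn, one_mul, one_mul] at h3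
        nlinarith
  obtain ⟨g, hg1, hg2⟩ := exists_extension_of_le_sublinear F N N_hom N_add hdom
  have hgD : ∀ c t, g (c, c, t) = θ c := by
    intro c t
    exact hg1 ⟨(c, c, t), rfl⟩
  have hτ : g (0, 0, 1) = 0 := by simpa using hgD 0 1
  let η₁l : X →ₗ[ℝ] ℝ := g ∘ₗ LinearMap.inl ℝ X (X × ℝ)
  let η₂l : X →ₗ[ℝ] ℝ := g ∘ₗ LinearMap.inr ℝ X (X × ℝ) ∘ₗ LinearMap.inl ℝ X ℝ
  have hη₁v : ∀ c, η₁l c = g (c, 0, 0) := fun c => rfl
  have hη₂v : ∀ c, η₂l c = g (0, c, 0) := fun c => rfl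
  have hdec : ∀ c₁ c₂ t, g (c₁, c₂, t) = η₁l c₁ + η₂l c₂ := by
    intro c₁ c₂ t
    have e : ((c₁, c₂, t) : X × X × ℝ) = (c₁, 0, 0) + (0, c₂, 0) + t • (0, 0, 1) := by
      simp
    rw [e, map_add, map_add, map_smul, hτ, hη₁v, hη₂v]
    simp
  have hN0 : ∀ c₁ c₂ : X, N (c₁, c₂, 0) = max ‖c₁‖ ‖c₂‖ := by
    intro c₁ c₂
    simp [N]
  have hbd : ∀ c₁ c₂ : X, η₁l c₁ + η₂l c₂ ≤ max ‖c₁‖ ‖c₂‖ := by
    intro c₁ c₂
    rw [← hdec c₁ c₂ 0, ← hN0]
    exact hg2 _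
  have hbd1 : ∀ c, |η₁l c| ≤ 1 * ‖c‖ := by
    intro c
    have h1 := hbd c 0
    have h2 := hbd (-c) 0
    simp only [map_zero, add_zero, norm_zero, norm_neg, map_neg] at h1 h2
    rw [max_eq_left (norm_nonneg c)] at h1 h2
    rw [one_mul, abs_le]
    constructor <;> linarith
  have hbd2 : ∀ c, |η₂l c| ≤ 1 * ‖c‖ := by
    intro c
    have h1 := hbd 0 c
    have h2 := hbd 0 (-c)
    simp only [map_zero, zero_add, norm_zero, norm_neg, map_neg] at h1 h2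
    rw [max_eq_right (norm_nonneg c)] at h1 h2
    rw [one_mul, abs_le]
    constructor <;> linarith
  let η₁ : X →L[ℝ] ℝ := η₁l.mkContinuous 1 hbd1
  let η₂ : X →L[ℝ] ℝ := η₂l.mkContinuous 1 hbd2
  have hη₁a : ∀ c, η₁ c = η₁l c := fun c => rfl
  have hη₂a : ∀ c, η₂ c = η₂l c := fun c => rfl
  have hsum : η₁ + η₂ = θ := by
    ext c
    show η₁l c + η₂l c = θ c
    rw [← hdec c c 0, hgD]
  have hn1 : ‖η₁‖ ≤ 1 := LinearMap.mkContinuous_norm_le _ zero_le_one hbd1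
  have hfix : ∀ c₂ : X, ‖c₂‖ = 1 → ‖η₁‖ ≤ 1 - η₂ c₂ := by
    intro c₂ hc₂
    have h0 : 0 ≤ 1 - η₂ c₂ := by
      have := hbd2 c₂
      rw [hc₂, one_mul, abs_le] at this
      have e : η₂ c₂ = η₂l c₂ := rfl
      rw [e]
      linarith [this.2]
    refine ContinuousLinearMap.opNorm_le_of_unit_norm h0 (fun c₁ hc₁ => ?_)
    have h1 := hbd c₁ c₂
    have h2 := hbd (-c₁) c₂
    rw [hc₁, hc₂, max_self] at h1
    rw [norm_neg, hc₁, hc₂, max_self, map_neg] at h2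
    rw [Real.norm_eq_abs, abs_le, hη₁a, hη₂a]
    constructor <;> linarith
  have hn2 : ‖η₂‖ ≤ 1 - ‖η₁‖ := by
    refine ContinuousLinearMap.opNorm_le_of_unit_norm (by linarith) (fun c₂ hc₂ => ?_)
    have h1 := hfix c₂ hc₂
    have h2 := hfix (-c₂) (by rwa [norm_neg])
    rw [map_neg] at h2
    rw [Real.norm_eq_abs, abs_le]
    constructor <;> linarith
  have hlam := hθe η₁ η₂ hsum (by linarith)
  set lam : ℝ := ‖η₂‖ with hlamdef
  have hlam0 : 0 ≤ lam := norm_nonneg _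
  have hlam1 : lam ≤ 1 := by
    have := norm_nonneg η₁
    linarith
  have hη₂t : ∀ c, η₂l c = lam * θ c := by
    intro c
    have h1 := congrArg (fun τ : X →L[ℝ] ℝ => τ c) hlam
    show η₂ c = lam * θ c
    simpa [smul_eq_mul] using h1
  have hη₁t : ∀ c, η₁l c = (1 - lam) * θ c := by
    intro c
    have h1 := congrArg (fun τ : X →L[ℝ] ℝ => τ c) hsum
    have h2 : η₁ c + η₂ c = θ c := h1
    rw [hη₁a, hη₂a, hη₂t] at h2
    linarith
  -- evaluate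
  set ρ : ℝ := |b| + 1 with hρ
  have hρ0 : 0 < ρ := by positivity
  have hbρ : b ≤ ρ - 1 := by
    have := le_abs_self b
    linarith
  have hbρ' : -b ≤ ρ - 1 := by
    have := neg_abs_le b
    linarith
  set ζ : ℝ := min 1 (κ / (2 * (2 * ρ + κ))) with hζ
  have hζ0 : 0 < ζ := lt_min one_pos (by positivity)
  obtain ⟨v, hv, hθv⟩ := exists_near_norming hθ1 hζ0 (min_le_left _ _)
  have hρb : 0 ≤ ρ + b + κ := by linarith
  have hρκ : 0 ≤ ρ + κ := by linarith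
  have hval := hg2 ((ρ + κ) • v, -y + (ρ + b + κ) • v, 1)
  have hNv : N ((ρ + κ) • v, -y + (ρ + b + κ) • v, 1) = ρ := by
    show max (‖(ρ + κ) • v‖ - κ * 1) (‖-y + (ρ + b + κ) • v + (1 : ℝ) • y‖ - 1 * (b + κ)) = ρ
    have e1 : ‖(ρ + κ) • v‖ - κ * 1 = ρ := by
      rw [norm_smul, hv, Real.norm_of_nonneg hρκ]; ring
    have e2 : ‖-y + (ρ + b + κ) • v + (1 : ℝ) • y‖ - 1 * (b + κ) = ρ := by
      have e3 : -y + (ρ + b + κ) • v + (1 : ℝ) • y = (ρ + b + κ) • v := by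
        rw [one_smul]; abel
      rw [e3, norm_smul, hv, Real.norm_of_nonneg hρb]; ring
    rw [e1, e2, max_self]
  rw [hNv, hdec, hη₁t, hη₂t, map_smul, map_add, map_neg, map_smul, smul_eq_mul, smul_eq_mul] at hval
  -- algebra
  set T : ℝ := θ v with hT
  set A : ℝ := ρ + κ + lam * b with hA
  have hA0 : 0 ≤ A := by
    have h1 : lam * b ≤ ρ := by nlinarith
    have h2 : -(lam * b) ≤ ρ := by nlinarith
    rw [hA]
    linarith
  have hA2 : A ≤ 2 * ρ + κ := by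
    have h1 : lam * b ≤ ρ := by nlinarith
    rw [hA]
    linarith
  have hexp : (1 - lam) * ((ρ + κ) * T) + lam * (-θ y + (ρ + b + κ) * T) = A * T - lam * θ y := by
    rw [hA]; ring
  rw [hexp] at hval
  have hz : A * (1 - ζ) ≤ A * T := mul_le_mul_of_nonneg_left hθv.le hA0
  have hz2 : ζ * (2 * ρ + κ) ≤ κ / 2 := by
    have h1 : ζ ≤ κ / (2 * (2 * ρ + κ)) := min_le_right _ _
    have hpos : 0 < 2 * ρ + κ := by positivity
    have h2 := mul_le_mul_of_nonneg_right h1 hpos.le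
    have e : κ / (2 * (2 * ρ + κ)) * (2 * ρ + κ) = κ / 2 := by
      field_simp
    rwa [e] at h2
  have hz3 : A * ζ ≤ κ / 2 := by
    have := mul_le_mul_of_nonneg_right hA2 hζ0.le
    nlinarith
  have hfin : A - lam * θ y = ρ + κ + lam * δ := by
    rw [hA, hb]; ring
  have hlamδ : 0 ≤ lam * δ := mul_nonneg hlam0 hδ.le
  nlinarith

/-- From the 3-ball property: extreme functionals have slope one. -/
theorem DualExtreme.slope (h3 : ThreeBall X) {θ : X →L[ℝ] ℝ} (hθ : DualExtreme θ) {ε : ℝ}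
    (hε : 0 < ε) {x : X} (hx : ‖x‖ = 1) :
    ∃ u : X, ‖u‖ = 1 ∧ 1 - ε ≤ θ u ∧ ‖x - u‖ ≤ 1 - θ x + ε := by
  have hθ1 := hθ.1
  have hle : ∀ z, θ z ≤ ‖z‖ := le_of_norm_le_one hθ1.le
  set ε₀ : ℝ := min ε 1 / 8 with hε₀
  have hε₀0 : 0 < ε₀ := by
    have := lt_min hε one_pos
    positivity
  have hε₀1 : ε₀ ≤ 1 / 8 := by
    have := min_le_right ε 1
    rw [hε₀]; linarith
  have hε₀2 : 8 * ε₀ ≤ ε := by
    have := min_le_left ε 1
    rw [hε₀]; linarith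
  obtain ⟨c, hc1, hc2⟩ := hθ.exists_vector (-x) hε₀0 hε₀0
  rw [← sub_eq_add_neg, map_neg] at hc2
  set M : ℝ := |θ c| + 2 with hM
  have hM0 : 0 < M := by positivity
  have hζ0 : 0 < min 1 (ε₀ / M) := lt_min one_pos (by positivity)
  obtain ⟨v, hv, hθv⟩ := exists_near_norming hθ1 hζ0 (min_le_left _ _)
  have hMv : M - ε₀ < M * θ v := by
    have h1 : min 1 (ε₀ / M) ≤ ε₀ / M := min_le_right _ _
    have h2 : M * (ε₀ / M) = ε₀ := by field_simp
    have h3 : 1 - ε₀ / M < θ v := by linarith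
    have h4 := mul_lt_mul_of_pos_left h3 hM0
    rw [mul_sub, mul_one, h2] at h4
    exact h4
  set c' : X := c + M • v with hc'
  have hθc' : θ c' = θ c + M * θ v := by
    rw [hc', map_add, map_smul, smul_eq_mul]
  have hMv2 : ‖M • v‖ = M := by
    rw [norm_smul, hv, mul_one, Real.norm_of_nonneg hM0.le]
  have h1c' : 1 ≤ θ c' := by
    rw [hθc']
    have := neg_abs_le (θ c)
    rw [hM] at hMv ⊢
    linarith
  have hnc' : ‖c'‖ ≤ θ c' + 2 * ε₀ := by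
    have := norm_add_le c (M • v)
    rw [hMv2] at this
    rw [hθc']
    linarith
  have hnc'x : ‖x - c'‖ ≤ θ c' + 3 * ε₀ - θ x := by
    have e : x - c' = -((c - x) + M • v) := by rw [hc']; abel
    rw [e, norm_neg]
    have := norm_add_le (c - x) (M • v)
    rw [hMv2] at this
    rw [hθc']
    linarith
  have hxle : θ x ≤ 1 := by
    have := hle x
    rwa [hx] at this
  obtain ⟨u, hu1, hu2, hu3⟩ := h3 0 x c' 1 (1 - θ x + ε₀) (θ c' + 2 * ε₀ - 1) zero_le_one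
    (by linarith) (by linarith)
    (by rw [zero_sub, norm_neg, hx]; linarith)
    (by rw [zero_sub, norm_neg]; linarith)
    (by linarith) ε₀ hε₀0
  rw [sub_zero] at hu1
  have hθu : 1 - 3 * ε₀ ≤ θ u := by
    have h1 := hle (c' - u)
    rw [map_sub, norm_sub_rev] at h1
    linarith
  have hun : 1 - 3 * ε₀ ≤ ‖u‖ := hθu.trans (hle u)
  have hupos : 0 < ‖u‖ := by linarith
  have hu0 : u ≠ 0 := norm_pos_iff.1 hupos
  refine ⟨‖u‖⁻¹ • u, ?_, ?_, ?_⟩
  · rw [norm_smul, norm_inv, norm_norm, inv_mul_cancel₀ hupos.ne']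
  all_goals
    have hwu : ‖‖u‖⁻¹ • u - u‖ ≤ 3 * ε₀ := by
      have e2 : ‖u‖⁻¹ • u - u = (1 - ‖u‖) • (‖u‖⁻¹ • u) := by
        rw [smul_smul, sub_mul, one_mul, mul_inv_cancel₀ hupos.ne', sub_smul, one_smul]
      rw [e2, norm_smul, norm_smul, norm_inv, norm_norm, inv_mul_cancel₀ hupos.ne', mul_one,
        Real.norm_eq_abs, abs_le]
      constructor <;> linarith
  · have h1 := hle (u - ‖u‖⁻¹ • u)
    rw [map_sub, norm_sub_rev] at h1
    linarith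
  · have e : x - ‖u‖⁻¹ • u = (x - u) + (u - ‖u‖⁻¹ • u) := by abel
    rw [e]
    have h1 := norm_add_le (x - u) (u - ‖u‖⁻¹ • u)
    rw [norm_sub_rev u, norm_sub_rev x u] at h1
    linarith

/-- Krein-Milman: an extreme functional norming a given vector. -/
theorem exists_dualExtreme {v : X} (hv : v ≠ 0) : ∃ θ : X →L[ℝ] ℝ, DualExtreme θ ∧ θ v = ‖v‖ := by
  classical
  have hlc : LocallyConvexSpace ℝ (WeakDual ℝ X) :=
    inferInstanceAs (LocallyConvexSpace ℝ (WeakBilin (topDualPairing ℝ X)))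
  let K : Set (WeakDual ℝ X) :=
    (WeakDual.toStrongDual ⁻¹' Metric.closedBall (0 : StrongDual ℝ X) 1) ∩ {ξ | ξ v = ‖v‖}
  have hK : IsCompact K := by
    refine (WeakDual.isCompact_closedBall (0 : StrongDual ℝ X) 1).inter_right ?_
    exact isClosed_eq (WeakDual.eval_continuous v) continuous_const
  have hmem : ∀ ξ : X →L[ℝ] ℝ, ‖ξ‖ ≤ 1 → ξ v = ‖v‖ → StrongDual.toWeakDual ξ ∈ K := by
    intro ξ h1 h2
    refine ⟨?_, h2⟩
    show WeakDual.toStrongDual (StrongDual.toWeakDual ξ) ∈ Metric.closedBall (0 : StrongDual ℝ X) 1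
    simpa using h1
  have hne : K.Nonempty := by
    obtain ⟨χ, h1, h2⟩ := exists_dual_vector ℝ v (norm_ne_zero_iff.2 hv)
    exact ⟨_, hmem χ h1.le (by simpa using h2)⟩
  obtain ⟨θ₀, hθ₀⟩ := hK.extremePoints_nonempty hne
  rw [mem_extremePoints] at hθ₀
  obtain ⟨⟨hb, hval⟩, hext⟩ := hθ₀
  let θ : X →L[ℝ] ℝ := WeakDual.toStrongDual θ₀
  have hθ₀eq : θ₀ = StrongDual.toWeakDual θ := rfl
  have hθn : ‖θ‖ ≤ 1 := by
    have h1 : θ ∈ Metric.closedBall (0 : StrongDual ℝ X) 1 := hb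
    simpa using h1
  have hθv : θ v = ‖v‖ := hval
  have hvn : 0 < ‖v‖ := norm_pos_iff.2 hv
  have hθ1 : ‖θ‖ = 1 := by
    refine le_antisymm hθn ?_
    have h1 := θ.le_opNorm v
    rw [hθv, Real.norm_of_nonneg hvn.le] at h1
    have h2 : 1 * ‖v‖ ≤ ‖θ‖ * ‖v‖ := by rw [one_mul]; exact h1
    exact le_of_mul_le_mul_right h2 hvn
  refine ⟨θ, ⟨hθ1, fun η₁ η₂ hsum hn => ?_⟩, hθv⟩
  set A := ‖η₁‖ with hA
  set B := ‖η₂‖ with hB
  have hA0 : 0 ≤ A := norm_nonneg _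
  have hB0 : 0 ≤ B := norm_nonneg _
  have hAB : A + B = 1 := by
    refine le_antisymm hn ?_
    rw [← hθ1, ← hsum]
    exact norm_add_le _ _
  rcases hB0.eq_or_lt with hB' | hBpos
  · have h0 : η₂ = 0 := norm_eq_zero.1 hB'.symm
    rw [← hB', zero_smul, h0]
  rcases hA0.eq_or_lt with hA' | hApos
  · have h0 : η₁ = 0 := norm_eq_zero.1 hA'.symm
    have hB1 : B = 1 := by linarith
    rw [hB1, one_smul, ← hsum, h0, zero_add]
  have hleθ : ∀ (ξ : X →L[ℝ] ℝ), ‖ξ‖ ≤ 1 → ξ v ≤ ‖v‖ := fun ξ hξ => le_of_norm_le_one hξ v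
  have hnξ₁ : ‖A⁻¹ • η₁‖ ≤ 1 := by
    rw [norm_smul, norm_inv, Real.norm_of_nonneg hA0, inv_mul_cancel₀ hApos.ne']
  have hnξ₂ : ‖B⁻¹ • η₂‖ ≤ 1 := by
    rw [norm_smul, norm_inv, Real.norm_of_nonneg hB0, inv_mul_cancel₀ hBpos.ne']
  have hθsplit : θ = A • (A⁻¹ • η₁) + B • (B⁻¹ • η₂) := by
    rw [smul_smul, smul_smul, mul_inv_cancel₀ hApos.ne', mul_inv_cancel₀ hBpos.ne', one_smul,
      one_smul, hsum]
  have hsplitv : A * (A⁻¹ • η₁) v + B * (B⁻¹ • η₂) v = ‖v‖ := by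
    have h1 := congrArg (fun τ : X →L[ℝ] ℝ => τ v) hθsplit
    simp only [add_apply, smul_apply, smul_eq_mul] at h1
    rw [← hθv, h1]
    simp only [smul_apply, smul_eq_mul]
  have h1v := hleθ _ hnξ₁
  have h2v := hleθ _ hnξ₂
  have hξ₂v : (B⁻¹ • η₂) v = ‖v‖ := by
    have hA1 : A = 1 - B := by linarith
    have h3 : A * (A⁻¹ • η₁) v ≤ A * ‖v‖ := mul_le_mul_of_nonneg_left h1v hA0
    have h4 : B * ‖v‖ ≤ B * (B⁻¹ • η₂) v := by
      rw [hA1] at h3 hsplitv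
      nlinarith
    exact le_antisymm h2v (le_of_mul_le_mul_left h4 hBpos)
  have hξ₁v : (A⁻¹ • η₁) v = ‖v‖ := by
    have hA1 : B = 1 - A := by linarith
    rw [hξ₂v, hA1] at hsplitv
    have h4 : A * (A⁻¹ • η₁) v = A * ‖v‖ := by linarith
    exact mul_left_cancel₀ hApos.ne' h4
  have hseg : θ₀ ∈ openSegment ℝ (StrongDual.toWeakDual (A⁻¹ • η₁))
      (StrongDual.toWeakDual (B⁻¹ • η₂)) := by
    refine ⟨A, B, hApos, hBpos, hAB, ?_⟩
    rw [hθ₀eq, ← map_smul, ← map_smul, ← map_add, ← hθsplit]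
  obtain ⟨-, h2⟩ := hext _ (hmem _ hnξ₁ hξ₁v) _ (hmem _ hnξ₂ hξ₂v) hseg
  have h3 : B⁻¹ • η₂ = θ := h2
  have h4 : η₂ = B • θ := by
    rw [← h3, smul_smul, mul_inv_cancel₀ hBpos.ne', one_smul]
  exact h4

/-- **The 3-ball property gives separating functionals of slope one.** -/
theorem slope_of_threeBall (h3 : ThreeBall X) {v : X} (hv : v ≠ 0) :
    ∃ c : ℝ, 0 < c ∧ ∀ ε : ℝ, 0 < ε → ∃ θ : X →L[ℝ] ℝ,
      (‖θ‖ ≤ 1 ∧ ∀ x : X, ‖x‖ = 1 → ∃ u : X, ‖u‖ = 1 ∧ 1 - ε ≤ θ u ∧ ‖x - u‖ ≤ 1 - θ x + ε) ∧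
      c ≤ |θ v| := by
  obtain ⟨θ, hθ, hθv⟩ := exists_dualExtreme hv
  refine ⟨‖v‖, norm_pos_iff.2 hv, fun ε hε => ⟨θ, ⟨hθ.1.le, fun x hx => hθ.slope h3 hε hx⟩, ?_⟩⟩
  rw [hθv]
  exact le_abs_self _

end Vale.Agent.Lib.P084.Ball3
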